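import Vale.Agent.P032.Words6.H503.Tie
import Vale.Agent.P032.Words6.H46.Code
import Vale.Agent.P032.Words.H151.Pal4

/-!
# P032: the trees of modes

`LeafOK lets l`: there is a box table with the letters `lets` under the modes `l`.  `TreeOK lets`: the
modes `l` of finitely many such tables cover all assignments of modes.
-/

open Set Filter Topology Metric

noncomputable section

namespace Vale.Agent.P032.Words6.H358

open Vale.Agent.P032.Six Vale.Agent.P032.S5.H767
  Vale.Agent.P032.Words6.H46 Vale.Agent.P032.Words6.H503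
  Vale.Agent.P032.Words.Trie

/-- the mode `m` of the class of triples with the mask `c`: `0`: never a palette, `1`: the complement is
never a palette, `2`: both are palettes, each at one point, the points are antipodal -/
def ModeP (T : ℂ → Set (Fin 6)) (z : ℂ) (f : Fin 6 → ℕ) (c : ℕ) (m : Fin 3) : Prop :=
  ∀ X : Set (Fin 6), X.ncard = 3 → code f X = c →
    if m = 0 then (∀ q, dist q z = 1 → T q ≠ X) else
    if m = 1 then (∀ q, dist q z = 1 → T q ≠ Xᶜ) else
    (∃ y, dist y z = 1 ∧ (∀ q, dist q z = 1 → (T q = X ↔ q = y)) ∧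
      ∀ q, dist q z = 1 → (T q = Xᶜ ↔ q = 2 * z - y))

/-- three bits -/
def tri (m : ℕ) : Bool :=
  (List.range 6).any fun i => (List.range 6).any fun j => (List.range 6).any fun k =>
    !(Nat.beq i j) && !(Nat.beq i k) && !(Nat.beq j k) && Nat.beq m (2 ^ i ||| 2 ^ j ||| 2 ^ k)

/-- two letters inside the mask `m` -/
def twoL (L : List ℕ) (m : ℕ) : Bool :=
  L.any fun a => L.any fun b => !(Nat.beq a b) && Nat.beq (Nat.land m a) a && Nat.beq (Nat.land m b) b

/-- the table `D` is complete under the modes `l` -/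
def okL (D : Dat) (l : List (ℕ × Fin 3)) : Bool :=
  ((List.range 64).all fun m => !(tri m) || !(twoL D.L m) || D.P.contains m || l.contains (m, 0) ||
    l.contains (Nat.xor 63 m, 1)) &&
  (D.P.all fun m => Nat.beq (tcode D m) 0 || (tri m && l.contains (m, 2))) &&
  Nat.ble D.tie.length D.P.length &&
  D.tie.all fun m => Nat.blt m (2 ^ D.r)

/-- a box table under the modes `l` -/
def LeafOK (lets : List ℕ) (l : List (ℕ × Fin 3)) : Prop :=
  ∃ D : Dat, BoxTab D ∧ okD D = true ∧ okL D l = true ∧ D.L = lets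

/-- box tables under the modes of a complete tree -/
def TreeOK (lets : List ℕ) : Prop :=
  ∃ ls : List (List (ℕ × Fin 3)), (∀ μ : ℕ → Fin 3, ∃ l ∈ ls, ∀ p ∈ l, μ p.1 = p.2) ∧
    ∀ l ∈ ls, LeafOK lets l

theorem LeafOK.mk' {D : Dat} {l : List (ℕ × Fin 3)} (h1 : BoxTab D) (h2 : okD D = true)
    (h3 : okL D l = true) : LeafOK D.L l := ⟨D, h1, h2, h3, rfl⟩

theorem treeOK_of_tab {D : Dat} (h1 : BoxTab D) (h2 : okD D = true) (h3 : okL D [] = true) :
    TreeOK D.L := by
  refine ⟨[[]], fun μ => ⟨[], by simp, by simp⟩, ?_⟩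
  intro l hl
  rw [List.mem_singleton] at hl
  rw [hl]
  exact ⟨D, h1, h2, h3, rfl⟩

theorem fin3 (a : Fin 3) : a = 0 ∨ a = 1 ∨ a = 2 := by revert a; decide

theorem treeOK_of_three {lets : List ℕ} {c : ℕ} (h0 : LeafOK lets [(c, 0)])
    (h1 : LeafOK lets [(c, 1)]) (h2 : LeafOK lets [(c, 2)]) : TreeOK lets := by
  refine ⟨[[(c, 0)], [(c, 1)], [(c, 2)]], ?_, ?_⟩
  · intro μ
    rcases fin3 (μ c) with h | h | h
    · exact ⟨[(c, 0)], by simp, by simp [h]⟩
    · exact ⟨[(c, 1)], by simp, by simp [h]⟩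
    · exact ⟨[(c, 2)], by simp, by simp [h]⟩
  · intro l hl
    simp only [List.mem_cons, List.not_mem_nil, or_false] at hl
    rcases hl with rfl | rfl | rfl
    · exact h0
    · exact h1
    · exact h2

variable {U : Fin 6 → Set ℂ} {T : ℂ → Set (Fin 6)} {z : ℂ}
  {H : ℝ → (Fin 6 → Set (Fin 6)) → Prop}

theorem exists_mu (hRS : ∀ X : Set (Fin 6), X.ncard = 3 → RS T z X) {f : Fin 6 → ℕ}
    (hinj : Function.Injective f) (hlt : ∀ i, f i < 6) :
    ∃ μ : ℕ → Fin 3, ∀ c : ℕ, ModeP T z f c (μ c) := by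
  have h : ∀ c : ℕ, ∃ m : Fin 3, ModeP T z f c m := by
    intro c
    by_cases hc : ∃ X : Set (Fin 6), X.ncard = 3 ∧ code f X = c
    · obtain ⟨X, hX, hXc⟩ := hc
      have huniq : ∀ Y : Set (Fin 6), code f Y = c → Y = X := fun Y hY =>
        code_inj hinj hlt (hY.trans hXc.symm)
      rcases modes (hRS X hX) with h | h | h
      · refine ⟨0, fun Y _ hYc => ?_⟩
        rw [huniq Y hYc, if_pos rfl]
        exact h
      · refine ⟨1, fun Y _ hYc => ?_⟩
        rw [huniq Y hYc, if_neg (by decide), if_pos rfl]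
        exact h
      · refine ⟨2, fun Y _ hYc => ?_⟩
        rw [huniq Y hYc, if_neg (by decide), if_neg (by decide)]
        exact h
    · exact ⟨0, fun X hX hXc => absurd ⟨X, hX, hXc⟩ hc⟩
  choose μ hμ using h
  exact ⟨μ, hμ⟩

/-- the leaves of the prism -/
def leaves35 : List (List (ℕ × Fin 3)) :=
  [[(7, 0), (11, 0), (26, 0)],
   [(7, 0), (11, 0), (26, 1)],
   [(7, 0), (11, 0), (26, 2)],
   [(7, 0), (11, 1), (22, 0)],
   [(7, 0), (11, 1), (22, 1), (26, 0), (13, 0), (19, 0)],
   [(7, 0), (11, 1), (22, 1), (26, 0), (13, 0), (19, 1)],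
   [(7, 0), (11, 1), (22, 1), (26, 0), (13, 0), (19, 2)],
   [(7, 0), (11, 1), (22, 1), (26, 0), (13, 1), (25, 0)],
   [(7, 0), (11, 1), (22, 1), (26, 0), (13, 1), (25, 1)],
   [(7, 0), (11, 1), (22, 1), (26, 0), (13, 1), (25, 2)],
   [(7, 0), (11, 1), (22, 1), (26, 0), (13, 2)],
   [(7, 0), (11, 1), (22, 1), (26, 1)],
   [(7, 0), (11, 1), (22, 1), (26, 2)],
   [(7, 0), (11, 1), (22, 2)],
   [(7, 0), (11, 2)],
   [(7, 1), (11, 0), (26, 0)],
   [(7, 1), (11, 0), (26, 1), (22, 0), (13, 0), (19, 0)],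
   [(7, 1), (11, 0), (26, 1), (22, 0), (13, 0), (19, 1)],
   [(7, 1), (11, 0), (26, 1), (22, 0), (13, 0), (19, 2)],
   [(7, 1), (11, 0), (26, 1), (22, 0), (13, 1), (25, 0)],
   [(7, 1), (11, 0), (26, 1), (22, 0), (13, 1), (25, 1)],
   [(7, 1), (11, 0), (26, 1), (22, 0), (13, 1), (25, 2)],
   [(7, 1), (11, 0), (26, 1), (22, 0), (13, 2)],
   [(7, 1), (11, 0), (26, 1), (22, 1)],
   [(7, 1), (11, 0), (26, 1), (22, 2)],
   [(7, 1), (11, 0), (26, 2)],
   [(7, 1), (11, 1), (22, 0)],
   [(7, 1), (11, 1), (22, 1)],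
   [(7, 1), (11, 1), (22, 2)],
   [(7, 1), (11, 2)],
   [(7, 2), (11, 0)],
   [(7, 2), (11, 1)],
   [(7, 2), (11, 2)]]

theorem cover35 (μ : ℕ → Fin 3) : ∃ l ∈ leaves35, ∀ p ∈ l, μ p.1 = p.2 := by
  rcases fin3 (μ 7) with h7 | h7 | h7
  · rcases fin3 (μ 11) with h11 | h11 | h11
    · rcases fin3 (μ 26) with h26 | h26 | h26
      · exact ⟨[(7, 0), (11, 0), (26, 0)], by decide, by simp [h7, h11, h26]⟩
      · exact ⟨[(7, 0), (11, 0), (26, 1)], by decide, by simp [h7, h11, h26]⟩
      · exact ⟨[(7, 0), (11, 0), (26, 2)], by decide, by simp [h7, h11, h26]⟩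
    · rcases fin3 (μ 22) with h22 | h22 | h22
      · exact ⟨[(7, 0), (11, 1), (22, 0)], by decide, by simp [h7, h11, h22]⟩
      · rcases fin3 (μ 26) with h26 | h26 | h26
        · rcases fin3 (μ 13) with h13 | h13 | h13
          · rcases fin3 (μ 19) with h19 | h19 | h19
            · exact ⟨[(7, 0), (11, 1), (22, 1), (26, 0), (13, 0), (19, 0)], by decide,
                by simp [h7, h11, h22, h26, h13, h19]⟩
            · exact ⟨[(7, 0), (11, 1), (22, 1), (26, 0), (13, 0), (19, 1)], by decide,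
                by simp [h7, h11, h22, h26, h13, h19]⟩
            · exact ⟨[(7, 0), (11, 1), (22, 1), (26, 0), (13, 0), (19, 2)], by decide,
                by simp [h7, h11, h22, h26, h13, h19]⟩
          · rcases fin3 (μ 25) with h25 | h25 | h25
            · exact ⟨[(7, 0), (11, 1), (22, 1), (26, 0), (13, 1), (25, 0)], by decide,
                by simp [h7, h11, h22, h26, h13, h25]⟩
            · exact ⟨[(7, 0), (11, 1), (22, 1), (26, 0), (13, 1), (25, 1)], by decide,
                by simp [h7, h11, h22, h26, h13, h25]⟩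
            · exact ⟨[(7, 0), (11, 1), (22, 1), (26, 0), (13, 1), (25, 2)], by decide,
                by simp [h7, h11, h22, h26, h13, h25]⟩
          · exact ⟨[(7, 0), (11, 1), (22, 1), (26, 0), (13, 2)], by decide,
              by simp [h7, h11, h22, h26, h13]⟩
        · exact ⟨[(7, 0), (11, 1), (22, 1), (26, 1)], by decide, by simp [h7, h11, h22, h26]⟩
        · exact ⟨[(7, 0), (11, 1), (22, 1), (26, 2)], by decide, by simp [h7, h11, h22, h26]⟩
      · exact ⟨[(7, 0), (11, 1), (22, 2)], by decide, by simp [h7, h11, h22]⟩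
    · exact ⟨[(7, 0), (11, 2)], by decide, by simp [h7, h11]⟩
  · rcases fin3 (μ 11) with h11 | h11 | h11
    · rcases fin3 (μ 26) with h26 | h26 | h26
      · exact ⟨[(7, 1), (11, 0), (26, 0)], by decide, by simp [h7, h11, h26]⟩
      · rcases fin3 (μ 22) with h22 | h22 | h22
        · rcases fin3 (μ 13) with h13 | h13 | h13
          · rcases fin3 (μ 19) with h19 | h19 | h19
            · exact ⟨[(7, 1), (11, 0), (26, 1), (22, 0), (13, 0), (19, 0)], by decide,
                by simp [h7, h11, h26, h22, h13, h19]⟩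
            · exact ⟨[(7, 1), (11, 0), (26, 1), (22, 0), (13, 0), (19, 1)], by decide,
                by simp [h7, h11, h26, h22, h13, h19]⟩
            · exact ⟨[(7, 1), (11, 0), (26, 1), (22, 0), (13, 0), (19, 2)], by decide,
                by simp [h7, h11, h26, h22, h13, h19]⟩
          · rcases fin3 (μ 25) with h25 | h25 | h25
            · exact ⟨[(7, 1), (11, 0), (26, 1), (22, 0), (13, 1), (25, 0)], by decide,
                by simp [h7, h11, h26, h22, h13, h25]⟩
            · exact ⟨[(7, 1), (11, 0), (26, 1), (22, 0), (13, 1), (25, 1)], by decide,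
                by simp [h7, h11, h26, h22, h13, h25]⟩
            · exact ⟨[(7, 1), (11, 0), (26, 1), (22, 0), (13, 1), (25, 2)], by decide,
                by simp [h7, h11, h26, h22, h13, h25]⟩
          · exact ⟨[(7, 1), (11, 0), (26, 1), (22, 0), (13, 2)], by decide,
              by simp [h7, h11, h26, h22, h13]⟩
        · exact ⟨[(7, 1), (11, 0), (26, 1), (22, 1)], by decide, by simp [h7, h11, h26, h22]⟩
        · exact ⟨[(7, 1), (11, 0), (26, 1), (22, 2)], by decide, by simp [h7, h11, h26, h22]⟩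
      · exact ⟨[(7, 1), (11, 0), (26, 2)], by decide, by simp [h7, h11, h26]⟩
    · rcases fin3 (μ 22) with h22 | h22 | h22
      · exact ⟨[(7, 1), (11, 1), (22, 0)], by decide, by simp [h7, h11, h22]⟩
      · exact ⟨[(7, 1), (11, 1), (22, 1)], by decide, by simp [h7, h11, h22]⟩
      · exact ⟨[(7, 1), (11, 1), (22, 2)], by decide, by simp [h7, h11, h22]⟩
    · exact ⟨[(7, 1), (11, 2)], by decide, by simp [h7, h11]⟩
  · rcases fin3 (μ 11) with h11 | h11 | h11
    · exact ⟨[(7, 2), (11, 0)], by decide, by simp [h7, h11]⟩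
    · exact ⟨[(7, 2), (11, 1)], by decide, by simp [h7, h11]⟩
    · exact ⟨[(7, 2), (11, 2)], by decide, by simp [h7, h11]⟩

theorem treeOK_35 {lets : List ℕ} (h : ∀ l ∈ leaves35, LeafOK lets l) : TreeOK lets :=
  ⟨leaves35, cover35, h⟩

end Vale.Agent.P032.Words6.H358
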