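import Vale.Agent.P032.Words.H670.M22
import Vale.Agent.P032.Words.H670.M28
import Vale.Agent.P032.Words.H670.M30
import Vale.Agent.P032.Words.H670.M32
import Vale.Agent.P032.Words.H670.M33
import Vale.Agent.P032.Words.H670.M34
import Vale.Agent.P032.Words.H670.S13
import Vale.Agent.P032.Words.H670.S17
import Vale.Agent.P032.Words.H670.S26
import Vale.Agent.P032.Words6.H358.TreeD

/-!
# P032: the ten trees of modes over the box tables, one class or none
-/

namespace Vale.Agent.P032.Words6.H358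

open Vale.Agent.P032.Words.Trie Vale.Agent.P032.Words6.H46

theorem tree13 : TreeOK [3, 5, 9, 6, 18, 36] :=
  treeOK_of_tab C13.tab (by decide +kernel) (by decide +kernel)

theorem tree17 : TreeOK [3, 5, 9, 18, 34, 20] :=
  treeOK_of_tab C17.tab (by decide +kernel) (by decide +kernel)

theorem tree26 : TreeOK [3, 5, 9, 6, 18, 36, 24] :=
  treeOK_of_tab C26.tab (by decide +kernel) (by decide +kernel)

theorem tree22 : TreeOK [3, 5, 10, 20, 40, 48] :=
  treeOK_of_three (c := 7)
    ⟨C22a.D, C22a.tab, by decide +kernel, by decide +kernel, rfl⟩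
    ⟨C22b.D, C22b.tab, by decide +kernel, by decide +kernel, rfl⟩
    ⟨C22t.D, C22t.tab, by decide +kernel, by decide +kernel, rfl⟩

theorem tree28 : TreeOK [3, 5, 9, 6, 18, 40, 48] :=
  treeOK_of_three (c := 7)
    ⟨C28a.D, C28a.tab, by decide +kernel, by decide +kernel, rfl⟩
    ⟨C28b.D, C28b.tab, by decide +kernel, by decide +kernel, rfl⟩
    ⟨C28t.D, C28t.tab, by decide +kernel, by decide +kernel, rfl⟩

theorem tree30 : TreeOK [3, 5, 9, 18, 34, 20, 40] :=
  treeOK_of_three (c := 13)
    ⟨C30a.D, C30a.tab, by decide +kernel, by decide +kernel, rfl⟩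
    ⟨C30b.D, C30b.tab, by decide +kernel, by decide +kernel, rfl⟩
    ⟨C30t.D, C30t.tab, by decide +kernel, by decide +kernel, rfl⟩

theorem tree32 : TreeOK [3, 5, 9, 6, 10, 20, 40, 48] :=
  treeOK_of_three (c := 7)
    ⟨C32a.D, C32a.tab, by decide +kernel, by decide +kernel, rfl⟩
    ⟨C32b.D, C32b.tab, by decide +kernel, by decide +kernel, rfl⟩
    ⟨C32t.D, C32t.tab, by decide +kernel, by decide +kernel, rfl⟩

theorem tree33 : TreeOK [3, 5, 9, 6, 18, 36, 24, 40] :=
  treeOK_of_three (c := 7)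
    ⟨C33a.D, C33a.tab, by decide +kernel, by decide +kernel, rfl⟩
    ⟨C33b.D, C33b.tab, by decide +kernel, by decide +kernel, rfl⟩
    ⟨C33t.D, C33t.tab, by decide +kernel, by decide +kernel, rfl⟩

theorem tree34 : TreeOK [3, 5, 9, 6, 18, 24, 40, 48] :=
  treeOK_of_three (c := 7)
    ⟨C34a.D, C34a.tab, by decide +kernel, by decide +kernel, rfl⟩
    ⟨C34b.D, C34b.tab, by decide +kernel, by decide +kernel, rfl⟩
    ⟨C34t.D, C34t.tab, by decide +kernel, by decide +kernel, rfl⟩

end Vale.Agent.P032.Words6.H358
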