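import Vale.Agent.P032.Words6.H358.TreeD
import Vale.Agent.P032.Words6.H220.Core
import Vale.Agent.P032.Words6.H46.Enc2

/-!
# P032: a table complete under the modes excludes a six-coloured centre

`leaf_false`: one leaf of a tree of modes.  `tree_false`: a complete tree.
-/

open Set Filter Topology Metric

noncomputable section

namespace Vale.Agent.P032.Words6.H358

open Vale.Agent.P032.Six Vale.Agent.P032.S5.H767 Vale.Agent.P032.Words6.H704
  Vale.Agent.P032.Words6.H46 Vale.Agent.P032.Words6.H503 Vale.Agent.P032.Words6.H220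
  Vale.Agent.P032.Words.Trie

variable {f : Fin 6 → ℕ}

theorem code_three (hi : Function.Injective f) (hl : ∀ i, f i < 6) {a b c : Fin 6} (hab : a ≠ b)
    (hac : a ≠ c) (hbc : b ≠ c) :
    code f {a, b, c} = 2 ^ f a ||| 2 ^ f b ||| 2 ^ f c := by
  have l1 : (2 : ℕ) ^ f a < 2 ^ 6 := Nat.pow_lt_pow_right (by norm_num) (hl a)
  have l2 : (2 : ℕ) ^ f b < 2 ^ 6 := Nat.pow_lt_pow_right (by norm_num) (hl b)
  have l3 : (2 : ℕ) ^ f c < 2 ^ 6 := Nat.pow_lt_pow_right (by norm_num) (hl c)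
  refine ext_mask hi hl (code_lt f _) (Nat.or_lt_two_pow (Nat.or_lt_two_pow l1 l2) l3) fun i => ?_
  rw [tb hi hl, Nat.testBit_or, Nat.testBit_or, Bool.or_eq_true, Bool.or_eq_true,
    Nat.testBit_two_pow, Nat.testBit_two_pow, Nat.testBit_two_pow, decide_eq_true_iff,
    decide_eq_true_iff, decide_eq_true_iff, Set.mem_insert_iff, Set.mem_insert_iff,
    Set.mem_singleton_iff]
  constructor
  · rintro (rfl | rfl | rfl)
    · exact Or.inl (Or.inl rfl)
    · exact Or.inl (Or.inr rfl)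
    · exact Or.inr rfl
  · rintro ((h | h) | h)
    · exact Or.inl (hi h).symm
    · exact Or.inr (Or.inl (hi h).symm)
    · exact Or.inr (Or.inr (hi h).symm)

theorem nbeq {a b : ℕ} (h : a ≠ b) : (!(Nat.beq a b)) = true := by
  rw [Bool.not_eq_true', ← Bool.not_eq_true]
  exact fun h1 => h (Nat.eq_of_beq_eq_true h1)

theorem tri_of (hi : Function.Injective f) (hl : ∀ i, f i < 6) {X : Set (Fin 6)}
    (h3 : X.ncard = 3) : tri (code f X) = true := by
  obtain ⟨a, b, c, hab, hac, hbc, rfl⟩ := Set.ncard_eq_three.1 h3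
  unfold tri
  refine List.any_eq_true.2 ⟨f a, List.mem_range.2 (hl a), List.any_eq_true.2
    ⟨f b, List.mem_range.2 (hl b), List.any_eq_true.2 ⟨f c, List.mem_range.2 (hl c), ?_⟩⟩⟩
  rw [Bool.and_eq_true, Bool.and_eq_true, Bool.and_eq_true]
  refine ⟨⟨⟨nbeq fun h => hab (hi h), nbeq fun h => hac (hi h)⟩, nbeq fun h => hbc (hi h)⟩, ?_⟩
  rw [code_three hi hl hab hac hbc]
  exact Nat.beq_refl _

theorem three_of (hi : Function.Injective f) (hl : ∀ i, f i < 6) {X : Set (Fin 6)}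
    (h : tri (code f X) = true) : X.ncard = 3 := by
  unfold tri at h
  obtain ⟨i, hi1, h⟩ := List.any_eq_true.1 h
  obtain ⟨j, hj1, h⟩ := List.any_eq_true.1 h
  obtain ⟨k, hk1, h⟩ := List.any_eq_true.1 h
  rw [Bool.and_eq_true, Bool.and_eq_true, Bool.and_eq_true] at h
  obtain ⟨⟨⟨h1, h2⟩, h3⟩, h4⟩ := h
  obtain ⟨a, rfl⟩ := ex_f hi hl (List.mem_range.1 hi1)
  obtain ⟨b, rfl⟩ := ex_f hi hl (List.mem_range.1 hj1)
  obtain ⟨c, rfl⟩ := ex_f hi hl (List.mem_range.1 hk1)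
  have e1 : ∀ {x y : ℕ}, (!(Nat.beq x y)) = true → x ≠ y := by
    rintro x y h rfl
    rw [Nat.beq_refl] at h
    exact absurd h (by decide)
  have hab : a ≠ b := fun e => e1 h1 (by rw [e])
  have hac : a ≠ c := fun e => e1 h2 (by rw [e])
  have hbc : b ≠ c := fun e => e1 h3 (by rw [e])
  have h5 : code f X = code f {a, b, c} := by
    rw [code_three hi hl hab hac hbc]
    exact Nat.eq_of_beq_eq_true h4
  rw [code_inj hi hl h5]
  exact Set.ncard_eq_three.2 ⟨a, b, c, hab, hac, hbc, rfl⟩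

variable {D : Dat} {l : List (ℕ × Fin 3)} {T : ℂ → Set (Fin 6)} {z : ℂ}
  {M : Fin 6 → Fin 6 → Prop}

theorem okL_spec (h : okL D l = true) :
    (∀ m < 64, tri m = true → twoL D.L m = true → m ∈ D.P ∨ (m, 0) ∈ l ∨ (Nat.xor 63 m, 1) ∈ l) ∧
    (∀ m ∈ D.P, tcode D m ≠ 0 → tri m = true ∧ (m, 2) ∈ l) ∧
    D.tie.length ≤ D.P.length ∧ ((D.tie.all fun m => Nat.blt m (2 ^ D.r)) = true) := by
  unfold okL at h
  simp only [Bool.and_eq_true] at h
  obtain ⟨⟨⟨h1, h2⟩, h3⟩, h4⟩ := h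
  refine ⟨?_, ?_, Nat.le_of_ble_eq_true h3, h4⟩
  · intro m hm k1 k2
    have h5 := all_range h1 hm
    rw [k1, k2] at h5
    simp only [Bool.not_true, Bool.false_or, Bool.or_eq_true, List.contains_iff_mem] at h5
    rcases h5 with (h5 | h5) | h5
    · exact Or.inl h5
    · exact Or.inr (Or.inl h5)
    · exact Or.inr (Or.inr h5)
  · intro m hm h0
    have h5 := List.all_eq_true.1 h2 m hm
    rw [Bool.or_eq_true, Bool.and_eq_true] at h5
    rcases h5 with h5 | ⟨h5, h6⟩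
    · exact absurd (Nat.eq_of_beq_eq_true h5) h0
    · exact ⟨h5, List.contains_iff_mem.1 h6⟩

theorem mem_of_tcode (h : okL D l = true) {m : ℕ} (h0 : tcode D m ≠ 0) : m ∈ D.P := by
  by_contra hm
  apply h0
  unfold tcode
  rw [List.idxOf_eq_length hm, List.getD_eq_getElem?_getD, List.getElem?_eq_none (okL_spec h).2.2.1]
  rfl

theorem hP_of (E : Enc D f M) (h : okL D l = true) (hm : ∀ p ∈ l, ModeP T z f p.1 p.2)
    (X : Set (Fin 6)) (hX : X.ncard = 3)
    (h2 : ∃ a b c d : Fin 6, a ≠ b ∧ c ≠ d ∧ M a b ∧ M c d ∧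
      ({a, b} : Set (Fin 6)) ≠ {c, d} ∧ ({a, b} : Set (Fin 6)) ⊆ X ∧ ({c, d} : Set (Fin 6)) ⊆ X) :
    code f X ∈ D.P ∨ ∀ q, dist q z = 1 → T q ≠ X := by
  obtain ⟨a, b, c, d, hab, hcd, m1, m2, hne, s1, s2⟩ := h2
  have hi := E.inj
  have hl := E.lt
  have t2 : twoL D.L (code f X) = true := by
    unfold twoL
    refine List.any_eq_true.2 ⟨_, (E.mem a b hab).1 m1, List.any_eq_true.2
      ⟨_, (E.mem c d hcd).1 m2, ?_⟩⟩
    rw [Bool.and_eq_true, Bool.and_eq_true, ← code_pair hi hl, ← code_pair hi hl,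
      code_and hi hl, code_and hi hl, Set.inter_eq_right.2 s1, Set.inter_eq_right.2 s2]
    exact ⟨⟨nbeq fun e => hne (code_inj hi hl e), Nat.beq_refl _⟩, Nat.beq_refl _⟩
  rcases (okL_spec h).1 _ (code_lt f X) (tri_of hi hl hX) t2 with h3 | h3 | h3
  · exact Or.inl h3
  · right
    have h4 := hm _ h3 X hX rfl
    rw [if_pos rfl] at h4
    exact h4
  · right
    have hc : (Xᶜ : Set (Fin 6)).ncard = 3 := by
      have := Set.ncard_add_ncard_compl X
      rw [Nat.card_eq_fintype_card, Fintype.card_fin] at this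
      omega
    have h4 := hm _ h3 Xᶜ hc (code_compl hi hl X).symm
    rw [if_neg (show ¬ ((1 : Fin 3) = 0) by decide), if_pos rfl, compl_compl] at h4
    exact h4

theorem hT_of (hi : Function.Injective f) (hl : ∀ i, f i < 6) (h : okL D l = true)
    (hm : ∀ p ∈ l, ModeP T z f p.1 p.2)
    (X : Set (Fin 6)) (h0 : tcode D (code f X) ≠ 0) : X.ncard = 3 ∧ TieP T z X := by
  obtain ⟨h1, h2⟩ := (okL_spec h).2.1 _ (mem_of_tcode h h0) h0
  have h3 := three_of hi hl h1
  have h4 := hm _ h2 X h3 rfl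
  rw [if_neg (show ¬ ((2 : Fin 3) = 0) by decide), if_neg (show ¬ ((2 : Fin 3) = 1) by decide)] at h4
  exact ⟨h3, h4⟩

theorem hinj_of (hi : Function.Injective f) (hl : ∀ i, f i < 6) (O : OkS D) (h : okL D l = true)
    (X Y : Set (Fin 6)) (c : ℕ) (h1 : (tcode D (code f X)).testBit c = true)
    (h2 : (tcode D (code f Y)).testBit c = true) : X = Y := by
  have hne : ∀ {Z : Set (Fin 6)}, (tcode D (code f Z)).testBit c = true →
      tcode D (code f Z) ≠ 0 := by
    intro Z hc h0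
    rw [h0, Nat.zero_testBit] at hc
    exact absurd hc (by simp)
  have k1 := mem_of_tcode h (hne h1)
  have k2 := mem_of_tcode h (hne h2)
  have i1 := List.idxOf_lt_length_iff.2 k1
  have i2 := List.idxOf_lt_length_iff.2 k2
  rw [O.lenP] at i1 i2
  by_contra hXY
  have hidx : D.P.idxOf (code f X) ≠ D.P.idxOf (code f Y) := by
    intro e
    exact hXY (code_inj hi hl ((List.idxOf_inj k1).1 e))
  have h3 := (O.ne _ i1 _ i2 hidx).2
  have h4 : (Nat.land (D.tie.getD (D.P.idxOf (code f X)) 0)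
      (D.tie.getD (D.P.idxOf (code f Y)) 0)).testBit c = true := by
    change ((D.tie.getD (D.P.idxOf (code f X)) 0) &&&
      (D.tie.getD (D.P.idxOf (code f Y)) 0)).testBit c = true
    rw [Nat.testBit_and, Bool.and_eq_true]
    exact ⟨h1, h2⟩
  rw [h3, Nat.zero_testBit] at h4
  exact absurd h4 (by simp)

variable {U : Fin 6 → Set ℂ} {H : ℝ → (Fin 6 → Set (Fin 6)) → Prop}

/-- **One leaf.** -/
theorem leaf_false (C : Six6 U T z)
    (hact : ∀ i, ∃ q, dist q z = 1 ∧ i ∈ T q ∧ (T q).ncard = 2)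
    (S : SelH T z H) (hleg : ∀ v h, H v h → Leg (MC T z) h)
    (hrot : ∀ v h, H v h → H (v + 1) (fun k => h (k + 1)))
    (hB : BoxTab D) (hok : okD D = true) (E : Enc D f (MC T z))
    (hl : okL D l = true) (hm : ∀ p ∈ l, ModeP T z f p.1 p.2) : False := by
  have hsys := sys_of C S hact hleg
  have hmd := md_of C S hact hleg (hP_of E hl hm) (hT_of E.inj E.lt hl hm)
  refine core_false C S hleg hrot hB (fun t => tmk_lt (okL_spec hl).2.2.2 _) hok E
    (hT_of E.inj E.lt hl hm) (hinj_of E.inj E.lt (okS hok) hl)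
    (fun u => enc_tuple hok E (hsys u) (hmd u))
    (fun u h hh => enc_blw hok E (hsys u) (hmd u) hh) (fun u c hc => ties_bit.1 hc)

/-- **A complete tree of box tables excludes the centre.** -/
theorem tree_false (C : Six6 U T z)
    (hact : ∀ i, ∃ q, dist q z = 1 ∧ i ∈ T q ∧ (T q).ncard = 2)
    (S : SelH T z H) (hleg : ∀ v h, H v h → Leg (MC T z) h)
    (hrot : ∀ v h, H v h → H (v + 1) (fun k => h (k + 1)))
    {lets : List ℕ} (hT : TreeOK lets) (hinj : Function.Injective f)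
    (hlt : ∀ i, f i < 6) (hM : ∀ a b, a ≠ b → (MC T z a b ↔ 2 ^ f a ||| 2 ^ f b ∈ lets))
    (hRS : ∀ X : Set (Fin 6), X.ncard = 3 → RS T z X) : False := by
  obtain ⟨ls, hls, hok⟩ := hT
  obtain ⟨μ, hμ⟩ := exists_mu hRS hinj hlt
  obtain ⟨l, hl, hlμ⟩ := hls μ
  obtain ⟨D, h1, h2, h3, h4⟩ := hok l hl
  have E : Enc D f (MC T z) := ⟨hinj, hlt, by rw [h4]; exact hM⟩
  exact leaf_false C hact S hleg hrot h1 h2 E h3 (fun p hp => by rw [← hlμ p hp]; exact hμ p.1)

end Vale.Agent.P032.Words6.H358
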